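import Vale.Agent.P228.Fib

/-!
P228 (Hilbert-Smith conjecture), partial answer: actions that preserve line fibrations, in every
dimension and without any regularity assumption.
-/

namespace Vale.Agent.Results.P228.Flags

open Vale.Agent.P228

universe u v w

theorem result :
    -- (1) compact groups, equivariant maps all of whose fibres are lines
    (∀ (G : Type u) [Group G] [TopologicalSpace G] [IsTopologicalGroup G] [CompactSpace G]
      (E : Type v) (X : Type w) [TopologicalSpace E] [TopologicalSpace X] [T2Space X]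
      (π : E → X) (a : G → E → E) (b : G → X → X),
      Continuous π → (∀ x, Nonempty ({e : E // π e = x} ≃ₜ ℝ)) → IsAction a → Faithful a →
      (∀ g e, π (a g e) = b g (π e)) → ∀ g, (∀ x, b g x = x) → g * g = 1) ∧
    -- (2) the `p`-adic integers: faithful on the total space implies faithful on the base
    (∀ (p : ℕ) [Fact p.Prime] (E : Type v) (X : Type w) [TopologicalSpace E] [TopologicalSpace X]
      [T2Space X] (π : E → X) (a : Multiplicative ℤ_[p] → E → E)
      (b : Multiplicative ℤ_[p] → X → X),
      Continuous π → (∀ x, Nonempty ({e : E // π e = x} ≃ₜ ℝ)) → IsAction a → Faithful a →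
      (∀ g e, π (a g e) = b g (π e)) → Faithful b) ∧
    -- (3) towers of line fibrations over a point
    (∀ (p : ℕ) [Fact p.Prime] (E : ℕ → Type v) [∀ i, TopologicalSpace (E i)] [∀ i, T2Space (E i)]
      [Subsingleton (E 0)] (π : ∀ i, E (i + 1) → E i)
      (a : ∀ i, Multiplicative ℤ_[p] → E i → E i),
      (∀ i, Continuous (π i)) → (∀ i x, Nonempty ({e : E (i + 1) // π i e = x} ≃ₜ ℝ)) →
      (∀ i, IsAction (a i)) → (∀ i g e, π i (a (i + 1) g e) = a i g (π i e)) →
      ∀ m, ¬ Faithful (a m)) ∧
    -- (4) compact groups acting on `X × ℝ^m`, `X` connected: order of the kernel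
    (∀ (G : Type u) [Group G] [TopologicalSpace G] [IsTopologicalGroup G] [CompactSpace G]
      (X : Type v) [TopologicalSpace X] [T2Space X] [ConnectedSpace X] (m : ℕ)
      (a : G → X × (Fin m → ℝ) → X × (Fin m → ℝ)) (b : G → X → X),
      IsAction a → Faithful a → (∀ g z, (a g z).1 = b g z.1) →
      (∀ g x v w k, (∀ j ≤ k, v j = w j) → (a g (x, v)).2 k = (a g (x, w)).2 k) →
      (∀ g, (∀ x, b g x = x) → g * g = 1) ∧ {g | ∀ x, b g x = x}.Finite ∧
        {g | ∀ x, b g x = x}.ncard ≤ 2 ^ m) ∧
    -- (5) triangular homeomorphisms of `ℝ^n`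
    (∀ (G : Type u) [Group G] [TopologicalSpace G] [IsTopologicalGroup G] [CompactSpace G] (n : ℕ)
      (a : G → (Fin n → ℝ) → (Fin n → ℝ)), IsAction a → Faithful a →
      (∀ g v w k, (∀ j ≤ k, v j = w j) → a g v k = a g w k) →
      (∀ g : G, g * g = 1) ∧ Finite G ∧ Nat.card G ≤ 2 ^ n) ∧
    (∀ (p : ℕ) [Fact p.Prime] (n : ℕ)
      (a : Multiplicative ℤ_[p] → (Fin n → ℝ) → (Fin n → ℝ)), IsAction a →
      (∀ g v w k, (∀ j ≤ k, v j = w j) → a g v k = a g w k) → ¬ Faithful a) := by
  have hsq : ∀ (p : ℕ) [Fact p.Prime] (g : Multiplicative ℤ_[p]), g * g = 1 → g = 1 := by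
    intro p _ g hg
    have h1 : Multiplicative.toAdd g + Multiplicative.toAdd g = 0 := hg
    have h2 : Multiplicative.toAdd g = 0 := by
      rw [← two_mul] at h1
      exact (mul_eq_zero.1 h1).resolve_left two_ne_zero
    exact h2
  have hne : ∀ (p : ℕ) [Fact p.Prime], Multiplicative.ofAdd (1 : ℤ_[p]) ≠ 1 := by
    intro p _ h
    exact one_ne_zero (Multiplicative.ofAdd.injective h)
  refine ⟨?_, ?_, ?_, ?_, ?_, ?_⟩
  · intro G _ _ _ _ E X _ _ _ π a b hπ hfib ha hf hb g hg
    exact fib_sq hπ hfib ha hf hb hg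
  · intro p _ E X _ _ _ π a b hπ hfib ha hf hb g hg
    exact hsq p g (fib_sq hπ hfib ha hf hb hg)
  · intro p _ E _ _ _ π a hπ hfib ha hb m hf
    have h := tower (hsq p) E π hπ hfib a ha hb m hf
    exact hne p (h _ fun z => Subsingleton.elim _ _)
  · intro G _ _ _ _ X _ _ _ m a b ha hf hb ht
    exact kernel_small ha hb ht hf
  · intro G _ _ _ _ n a ha hf ht
    have h := kernel_small (X := Unit) (m := n) (a := fun g z => ((), a g z.2))
      (b := fun _ x => x)
      ⟨fun z => Prod.ext rfl (ha.one _), fun g h z => Prod.ext rfl (ha.mul g h _),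
        continuous_const.prodMk (ha.cont.comp (continuous_fst.prodMk
          (continuous_snd.comp continuous_snd)))⟩
      (fun g z => rfl) (fun g x v w k h => ht g v w k h)
      (fun g hg => hf g fun z => congrArg Prod.snd (hg ((), z)))
    have huniv : {g : G | ∀ x : Unit, (fun (_ : G) (x : Unit) => x) g x = x} = Set.univ :=
      Set.eq_univ_of_forall fun g x => rfl
    refine ⟨fun g => h.1 g fun x => rfl, ?_, ?_⟩
    · have h1 := h.2.1
      rw [huniv] at h1
      exact Set.finite_univ_iff.1 h1
    · have h1 := h.2.2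
      rw [huniv, Set.ncard_univ] at h1
      exact h1
  · intro p _ n a ha ht hf
    have h := kernel_small (X := Unit) (m := n) (a := fun g z => ((), a g z.2))
      (b := fun _ x => x)
      ⟨fun z => Prod.ext rfl (ha.one _), fun g h z => Prod.ext rfl (ha.mul g h _),
        continuous_const.prodMk (ha.cont.comp (continuous_fst.prodMk
          (continuous_snd.comp continuous_snd)))⟩
      (fun g z => rfl) (fun g x v w k h => ht g v w k h)
      (fun g hg => hf g fun z => congrArg Prod.snd (hg ((), z)))
    exact hne p (hsq p _ (h.1 _ fun x => rfl))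

end Vale.Agent.Results.P228.Flags
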